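import Vale.Agent.P048.Small
import Vale.Agent.P048.QAll
import Vale.Agent.P048.Large
import Vale.Agent.P048.BigClique
import Vale.Agent.P048.Final
import Vale.Agent.P048.FinT

namespace Vale.Agent.Results.P048.AllMGeNine

theorem result (m n : ℕ) (hn : 3 ≤ n) (hnm : n ≤ m) (h : 9 ≤ m ∨ 2 * n ≤ m) :
    IsLeast {N : ℕ | ∀ G : SimpleGraph (Fin N),
      (SimpleGraph.cycleGraph m).IsContained G ∨
        (⊤ : SimpleGraph (Fin n)).IsContained Gᶜ} ((m - 1) * (n - 1) + 1) := by
  refine Vale.Agent.P048.isLeast_of_upper (by omega) (by omega) ?_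
  intro G hG
  rcases Nat.lt_or_ge m 9 with h9 | h9
  · exact Vale.Agent.P048.upper_small (t := m / 2) (by omega) (by omega) (by omega) (by omega)
      (n - 1) (by omega) Finset.univ hG (by rw [Finset.card_univ, Fintype.card_fin])
  rcases Nat.lt_or_ge m 17 with hm | hm
  · exact Vale.Agent.P048.L.upper_9_16 h9 (by omega) (n - 1) (by omega) Finset.univ hG
      (by rw [Finset.card_univ, Fintype.card_fin])
  rcases Nat.lt_or_ge m 168 with hm1 | hm1
  · exact Vale.Agent.P048.L.upper_17 hm (by omega) (n - 1) (by omega) Finset.univ hG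
      (by rw [Finset.card_univ, Fintype.card_fin])
  rcases Nat.lt_or_ge m 1992 with hm2 | hm2
  · exact Vale.Agent.P048.upper_midQ hm1 (by omega) (n - 1) (by omega) Finset.univ hG
      (by rw [Finset.card_univ, Fintype.card_fin])
  · exact Vale.Agent.P048.L.upper_large hm2
      (fun a W ha ham hW hc hmin K hK hcl hk =>
        Vale.Agent.P048.big_clique (by omega) ha ham hW hc hmin hK hcl hk)
      (n - 1) (by omega) Finset.univ hG (by rw [Finset.card_univ, Fintype.card_fin])

end Vale.Agent.Results.P048.AllMGeNine
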