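import Vale.Agent.P048.Small
import Vale.Agent.P048.QAll
import Vale.Agent.P048.Large
import Vale.Agent.P048.BigClique
import Vale.Agent.P048.Final
import Vale.Agent.P048.FinT
import Vale.Agent.P048.Small456
import Vale.Agent.P048.Small7
import Vale.Agent.P048.Small8
import Vale.Agent.P048.Pent

namespace Vale.Agent.Results.P048.AllPairs

theorem result (m n : ℕ) (hn : 3 ≤ n) (hnm : n ≤ m) :
    IsLeast {N : ℕ | ∀ G : SimpleGraph (Fin N),
      (SimpleGraph.cycleGraph m).IsContained G ∨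
        (⊤ : SimpleGraph (Fin n)).IsContained Gᶜ} ((m - 1) * (n - 1) + 1) ↔
      (m, n) ≠ (3, 3) := by
  constructor
  · rintro h h33
    rw [Prod.mk.injEq] at h33
    obtain ⟨rfl, rfl⟩ := h33
    exact Vale.Agent.P048.pent_not_least h
  intro h33
  have h4 : 4 ≤ m := by
    by_contra hcon
    apply h33
    rw [Prod.mk.injEq]
    omega
  refine Vale.Agent.P048.isLeast_of_upper (by omega) (by omega) ?_
  intro G hG
  have hc : ((m - 1) * (n - 1) + 1) ≤ (Finset.univ : Finset (Fin ((m - 1) * (n - 1) + 1))).card :=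
    by rw [Finset.card_univ, Fintype.card_fin]
  have hm : m = 4 ∨ m = 5 ∨ m = 6 ∨ m = 7 ∨ m = 8 ∨ (9 ≤ m ∧ m < 17) ∨ (17 ≤ m ∧ m < 168) ∨
    (168 ≤ m ∧ m < 1992) ∨ 1992 ≤ m := by omega
  rcases hm with rfl | rfl | rfl | rfl | rfl | ⟨h1, h2⟩ | ⟨h1, h2⟩ | ⟨h1, h2⟩ | h1
  · exact Vale.Agent.P048.L.upper_4 (n - 1) (by omega) Finset.univ hG hc
  · exact Vale.Agent.P048.L.upper_5 (n - 1) (by omega) Finset.univ hG hc
  · exact Vale.Agent.P048.L.upper_6 (n - 1) (by omega) Finset.univ hG hc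
  · exact Vale.Agent.P048.L.upper_7 (n - 1) (by omega) Finset.univ hG hc
  · exact Vale.Agent.P048.L.upper_8 (n - 1) (by omega) Finset.univ hG hc
  · exact Vale.Agent.P048.L.upper_9_16 h1 (by omega) (n - 1) (by omega) Finset.univ hG hc
  · exact Vale.Agent.P048.L.upper_17 h1 (by omega) (n - 1) (by omega) Finset.univ hG hc
  · exact Vale.Agent.P048.upper_midQ h1 (by omega) (n - 1) (by omega) Finset.univ hG hc
  · exact Vale.Agent.P048.L.upper_large h1
      (fun a W ha ham hW hc hmin K hK hcl hk =>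
        Vale.Agent.P048.big_clique (by omega) ha ham hW hc hmin hK hcl hk)
      (n - 1) (by omega) Finset.univ hG hc

end Vale.Agent.Results.P048.AllPairs
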