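import Vale.Agent.P048.WalkForm

namespace Vale.Agent.Results.P048.AllPairsWalk

theorem result (m n : ℕ) (hn : 3 ≤ n) (hnm : n ≤ m) (h33 : ¬ (m = 3 ∧ n = 3)) :
    (∀ (V : Type*) [Fintype V] (G : SimpleGraph V), (m - 1) * (n - 1) + 1 ≤ Fintype.card V →
      (∃ s : Finset V, s.card = n ∧ ∀ x ∈ s, ∀ y ∈ s, ¬ G.Adj x y) ∨
      (∃ (v : V) (p : G.Walk v v), p.IsCycle ∧ p.length = m)) ∧
    (∃ G : SimpleGraph (Fin ((m - 1) * (n - 1))),
      (∀ s : Finset (Fin ((m - 1) * (n - 1))), (∀ x ∈ s, ∀ y ∈ s, ¬ G.Adj x y) → s.card < n) ∧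
      (∀ (v : Fin ((m - 1) * (n - 1))) (p : G.Walk v v), p.IsCycle → p.length < m)) := by
  classical
  refine ⟨?_, Vale.Agent.P048.blocks m _, ?_, ?_⟩
  · intro V _ G hV
    by_cases h : ∃ s : Finset V, s.card = n ∧ ∀ x ∈ s, ∀ y ∈ s, ¬ G.Adj x y
    · exact Or.inl h
    · refine Or.inr (Vale.Agent.P048.walk_of_hasCyc (by omega)
        (Vale.Agent.P048.upper_any (by omega) (n - 1) (by omega) Finset.univ ?_ ?_))
      · apply Vale.Agent.P048.alphaLe_of_free (by omega)
        intro t ht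
        refine h ⟨t, ht.card_eq, ?_⟩
        intro x hx y hy hxy
        exact ht.isIndepSet hx hy hxy.ne hxy
      · rw [Finset.card_univ]
        exact hV
  · intro s hs
    by_contra hcon
    push Not at hcon
    obtain ⟨t, ht, htc⟩ := Finset.exists_subset_card_eq hcon
    refine Vale.Agent.P048.blocks_free (by omega) le_rfl t ⟨?_, htc⟩
    intro x hx y hy _
    exact hs x (ht hx) y (ht hy)
  · intro v p hp
    exact Vale.Agent.P048.blocks_no_walk (by omega) p hp

end Vale.Agent.Results.P048.AllPairsWalk
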