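import Vale.Agent.P048.Main
import Vale.Agent.P048.Final

namespace Vale.Agent.Results.P048.RangeThreeN

theorem result (m n : ℕ) (hn : 3 ≤ n) (hmn : 3 * n ≤ m + 4) :
    IsLeast {N : ℕ | ∀ G : SimpleGraph (Fin N),
      (SimpleGraph.cycleGraph m).IsContained G ∨
        (⊤ : SimpleGraph (Fin n)).IsContained Gᶜ} ((m - 1) * (n - 1) + 1) := by
  refine Vale.Agent.P048.isLeast_of_upper (by omega) (by omega) ?_
  intro G hG
  exact Vale.Agent.P048.upper (by omega) (n - 1) (by omega) Finset.univ hG
    (by rw [Finset.card_univ, Fintype.card_fin])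

end Vale.Agent.Results.P048.RangeThreeN
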